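import Vale.Agent.P088.R2.H558.Defs
import Vale.Agent.P088.H599.J.Defs

/-!
# P088, T2: the row used in the final assembly
-/

open MeasureTheory Set
open scoped ContDiff Matrix

noncomputable section

namespace Vale.Agent.P088.R2.H455.T

open Vale.Agent.P088.LR Vale.Agent.P088.LR.U Vale.Agent.P088.LR.H158

/-- (T2) rigidity in the conformal class of a divergence free tensor near `1`: the conformal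
factors are arbitrary, the connections are small; `ε` does not depend on the conformal factors. -/
def RowT2 : Prop := ∀ n N : ℕ, 3 ≤ n → 1 ≤ N → ∃ (k : ℕ) (ε : ℝ), 0 < ε ∧ ∀ Ω : Set (V n),
  IsOpen Ω → interior (closure Ω) = Ω → IsPreconnected (closure Ω)ᶜ → Ω ⊆ HY.Bs n (1 / 2) →
  ∀ s : MF n, HY.TS n k ε s →
  ∀ σ₁ σ₂ : V n → ℝ, ContDiff ℝ ∞ σ₁ → ContDiff ℝ ∞ σ₂ → (∀ x, 0 < σ₁ x) → (∀ x, 0 < σ₂ x) →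
  (∀ x ∉ Ω, σ₂ x = σ₁ x) → ∀ A₁ A₂ : Cn n N, SmU A₁ → SmU A₂ →
  (∀ i, ∀ x ∉ Ω, A₂ i x = A₁ i x) → (∀ i, ClC k ε (A₁ i)) → (∀ i, ClC k ε (A₂ i)) →
  OrU Ω (fun x => σ₁ x • s x) A₁ (fun x => σ₂ x • s x) A₂ →
  (∀ x, σ₂ x = σ₁ x) ∧ ∃ U : MC n N, SmC U ∧ (∀ x, (U x)ᴴ * U x = 1) ∧ (∀ x ∉ Ω, U x = 1) ∧
    ∀ i, ∀ x ∈ Ω, A₂ i x = (U x)ᴴ * A₁ i x * U x + (U x)ᴴ * pdm i U x

/-- Rigidity in the unit scale. -/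
def UnitT (n N k : ℕ) (ε : ℝ) : Prop := ∀ Ω : Set (V n), IsOpen Ω →
  interior (closure Ω) = Ω → IsPreconnected (closure Ω)ᶜ → Ω ⊆ {x | ∑ j, (x j - 1 / 2) ^ 2 ≤ 1 / 1024} → ∀ s : MF n, SmM s →
  (∀ x, (s x).IsSymm) → (∀ x ∉ CF.bal n, s x = 1) →
  (∀ i j, Cl k ε (fun x => s x i j - (1 : Matrix (Fin n) (Fin n) ℝ) i j)) →
  ∀ σ₁ σ₂ : V n → ℝ, ContDiff ℝ ∞ σ₁ → ContDiff ℝ ∞ σ₂ → (∀ x, 0 < σ₁ x) → (∀ x, 0 < σ₂ x) →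
  (∀ x ∉ Ω, σ₂ x = σ₁ x) → ∀ A₁ A₂ : Cn n N, SmU A₁ → SmU A₂ →
  (∀ i, ∀ x ∉ Ω, A₂ i x = A₁ i x) → (∀ i, ClC k ε (A₁ i)) → (∀ i, ClC k ε (A₂ i)) →
  OrU Ω (fun x => σ₁ x • s x) A₁ (fun x => σ₂ x • s x) A₂ →
  (∀ x, σ₂ x = σ₁ x) ∧ ∃ U : MC n N, SmC U ∧ (∀ x, (U x)ᴴ * U x = 1) ∧ (∀ x ∉ Ω, U x = 1) ∧
    ∀ i, ∀ x ∈ Ω, A₂ i x = (U x)ᴴ * A₁ i x * U x + (U x)ᴴ * pdm i U x

end Vale.Agent.P088.R2.H455.T
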