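import Vale.Agent.P088.R2.H455.T.P1
import Vale.Agent.P088.R2.H455.T.Row
import Vale.Agent.P088.R2.H238.Log
import Vale.Agent.P088.H535.USmk

/-!
# P088, T2: harmonic coordinates, the unit scale
-/

open MeasureTheory Set
open scoped ContDiff Matrix

noncomputable section

namespace Vale.Agent.P088.R2.H455.T

open Vale.Agent.P088.LR Vale.Agent.P088.LR.U Vale.Agent.P088.LR.H158 Vale.Agent.P088.LR.CF
open Vale.Agent.P088.LR.H925 (ph ps contDiff_ph contDiff_ps pd_ph)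
open Vale.Agent.P088.R2.H238

variable {n N : ℕ}

theorem cl_phF {F : Type*} [NormedAddCommGroup F] [NormedSpace ℝ F] {f : V n → F}
    (hf : ContDiff ℝ ∞ f) {k : ℕ} {e : ℝ} (h : Cl k e f) : Cl k e (fun y => f (ph 4 y)) := by
  intro l hl x
  set c : V n := fun _ => (1 / 2 : ℝ) with hc
  have hg : ContDiff ℝ ∞ (fun z => f (z + c)) := hf.comp (contDiff_id.add contDiff_const)
  have h2 := ContinuousLinearMap.iteratedFDeriv_comp_right
    ((4 : ℝ)⁻¹ • ContinuousLinearMap.id ℝ (V n))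
    (f := fun z => f (z + c)) (n := ∞) hg x (i := l) (by exact_mod_cast le_top)
  have h1 : (fun y => f (ph 4 y)) =
      (fun z => f (z + c)) ∘ ⇑((4 : ℝ)⁻¹ • ContinuousLinearMap.id ℝ (V n)) := by
    funext y
    simp [ph, hc]
  rw [h1, h2]
  have h0 : 0 ≤ e := (norm_nonneg _).trans (h l hl x)
  refine (ContinuousMultilinearMap.norm_compContinuousLinearMap_le _ _).trans ?_
  have h3 : ‖(4 : ℝ)⁻¹ • ContinuousLinearMap.id ℝ (V n)‖ ≤ 1 := by
    rw [norm_smul]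
    calc ‖(4 : ℝ)⁻¹‖ * ‖ContinuousLinearMap.id ℝ (V n)‖ ≤ 1 * 1 := by
          gcongr
          · norm_num
          · exact ContinuousLinearMap.norm_id_le
      _ = 1 := by norm_num
  have h4 := iteratedFDeriv_comp_add_right (𝕜 := ℝ) (f := f) l c
    (((4 : ℝ)⁻¹ • ContinuousLinearMap.id ℝ (V n)) x)
  rw [h4]
  rw [Finset.prod_const, Finset.card_univ, Fintype.card_fin]
  calc _ ≤ e * 1 := by
        gcongr
        · exact h l hl _
        · exact pow_le_one₀ (norm_nonneg _) h3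
    _ = e := mul_one e

/-- The push-forward of a connection by `4 (id + w - 1/2)`. -/
theorem pfo_Kq {w K : V n → V n} (D : Dif univ w K) (A : Cn n N) (i : Fin n) (y : V n) :
    pfo A (Kq K) i y = ((4⁻¹ : ℝ) : ℂ) • pfo A K i (ph 4 y) := by
  unfold pfo
  rw [Finset.smul_sum]
  refine Finset.sum_congr rfl fun j _ => ?_
  have h1 : pd i (Kq K) y = (4 : ℝ)⁻¹ • pd i K (ph 4 y) :=
    pd_ph i (D.sK.differentiable (by simp)) 4 y
  rw [h1, Pi.smul_apply, smul_eq_mul, smul_smul, Complex.ofReal_mul]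
  rfl

theorem clC_Kq {w K : V n → V n} (D : Dif univ w K) {A : Cn n N} (hA : SmU A) {i : Fin n} {k : ℕ}
    {e : ℝ} (h : ClC k e (pfo A K i)) : ClC k e (pfo A (Kq K) i) := by
  intro a b
  have hsm : ContDiff ℝ ∞ (fun y => pfo A K i y a b) :=
    (Vale.Agent.P088.H292.UP.smU_pfo D hA).1 i a b
  have e1 : (fun y => pfo A (Kq K) i y a b) = fun y => (4 : ℝ)⁻¹ • pfo A K i (ph 4 y) a b := by
    funext y
    rw [pfo_Kq D, Matrix.smul_apply, smul_eq_mul, Complex.real_smul]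
  rw [e1]
  intro l hl x
  have h2 : iteratedFDeriv ℝ l (fun y => (4 : ℝ)⁻¹ • pfo A K i (ph 4 y) a b) x =
      (4 : ℝ)⁻¹ • iteratedFDeriv ℝ l (fun y => pfo A K i (ph 4 y) a b) x :=
    iteratedFDeriv_const_smul_apply'
      ((hsm.comp (contDiff_ph 4)).of_le (by exact_mod_cast le_top)).contDiffAt
  rw [h2, norm_smul]
  have h3 := cl_phF hsm (h a b) l hl x
  have h4 : ‖(4 : ℝ)⁻¹‖ ≤ 1 := by norm_num
  calc ‖(4 : ℝ)⁻¹‖ * ‖iteratedFDeriv ℝ l (fun y => pfo A K i (ph 4 y) a b) x‖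
      ≤ 1 * ‖iteratedFDeriv ℝ l (fun y => pfo A K i (ph 4 y) a b) x‖ :=
        mul_le_mul_of_nonneg_right h4 (norm_nonneg _)
    _ ≤ e := by rw [one_mul]; exact h3

/-- The tensors of a conformal class in the new coordinates. -/
theorem psh_cls {w K : V n → V n} (D : Dif univ w K) (σ : V n → ℝ) (s : MF n) :
    psh (fun x => σ x • s x) (wq w) (Kq K) =
      fun y => (((4 : ℝ) ^ 2 / 4 ^ n) * σ (Kq K y)) • tq s w K y := by
  funext y
  rw [psh_smul, psh_wq D, smul_smul, mul_comm]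

/-- **Rigidity in a conformal class, in the unit scale.** -/
theorem unitT (hT : RowT2) {n N : ℕ} (hn : 3 ≤ n) (hN : 1 ≤ N) :
    ∃ (k : ℕ) (ε : ℝ), 0 < ε ∧ UnitT n N k ε := by
  obtain ⟨k, ε, hε, hco⟩ := hT n N hn hN
  obtain ⟨CD, εD, hCD, hεD, hdif⟩ := H634.rowDIF n k
  obtain ⟨δa, hδa, hna⟩ := H72.norm1 n k (ε / CD) (by positivity)
  obtain ⟨CG, εG, hCG, hεG, hg2⟩ :=
    (H27.rowG2 H501.rowA1 H501.rowA2 H776.rowA3 H102.neu) n (k + 1)
  obtain ⟨CS, εS, hCS, hεS, hsmk⟩ := H535.smk n N k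
  obtain ⟨CB, hCB, hB⟩ := H776.rowA3 n (k + 1)
  set η : ℝ := 1 / (64 * (n + 1)) with hη
  have hη0 : 0 < η := by positivity
  obtain ⟨δS, hδS, hlS⟩ := ex_small738 [(1, εS), (CS, ε)] (by
    intro p hp
    simp only [List.mem_cons, List.not_mem_nil, or_false] at hp
    rcases hp with rfl | rfl
    · exact hεS
    · exact hε)
  have hS1 : δS ≤ εS := by simpa using hlS (1, εS) (by simp)
  have hS2 : CS * δS ≤ ε := hlS (CS, ε) (by simp)
  obtain ⟨δ2, hδ2, hl2⟩ := ex_small738 [(1, εG), (CG, εD), (CG, δa), (CG, η), (CG, δS)] (by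
    intro p hp
    simp only [List.mem_cons, List.not_mem_nil, or_false] at hp
    rcases hp with rfl | rfl | rfl | rfl | rfl
    · exact hεG
    · exact hεD
    · exact hδa
    · exact hη0
    · exact hδS)
  have hδ2G : δ2 ≤ εG := by simpa using hl2 (1, εG) (by simp)
  have hδ2D : CG * δ2 ≤ εD := hl2 (CG, εD) (by simp)
  have hδ2a : CG * δ2 ≤ δa := hl2 (CG, δa) (by simp)
  have hδ2η : CG * δ2 ≤ η := hl2 (CG, η) (by simp)
  have hδ2S : CG * δ2 ≤ δS := hl2 (CG, δS) (by simp)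
  obtain ⟨B, hB0, hlB⟩ := ex_small738 [(CB, δ2), (1, δa), (1, δS)] (by
    intro p hp
    simp only [List.mem_cons, List.not_mem_nil, or_false] at hp
    rcases hp with rfl | rfl | rfl
    · exact hδ2
    · exact hδa
    · exact hδS)
  have hB1 : CB * B ≤ δ2 := hlB (CB, δ2) (by simp)
  have hBa : B ≤ δa := by simpa using hlB (1, δa) (by simp)
  have hBS : B ≤ δS := by simpa using hlB (1, δS) (by simp)
  refine ⟨k + 1 + n + 1, B, hB0, ?_⟩
  intro Ω hΩ hreg hcn hΩb' s hs hy hone1b hcl σ₁ σ₂ hσ1 hσ2 hp1 hp2 hσoff A₁ A₂ hA₁ hA₂ hAoff hc1 hc2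
    hor
  have hΩb : Ω ⊆ HY.bls n := hΩb'
  have hΩc : Ω ⊆ core n := hΩb.trans bls_subset_core
  have hbd : Bornology.IsBounded Ω := H129.isCompact_core.isBounded.subset hΩc
  have hone1 : ∀ x ∉ core n, s x = 1 := fun x hx => hone1b x fun h => hx (bal_subset_core442 h)
  have hent : ∀ i j, nm (k + 1) (cf 0 (ent s i j)) ≤ δ2 := by
    intro i j
    have h1 := (hB (ent s i j) (H129.smooth_ent hs i j)
      ((H129.tsupport_ent subset_rfl hone1 i j).trans H129.core_subset_cube) 0 (by simp)).2.2 B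
      (H442.cl_ent442 hs i j (hcl i j))
    exact h1.trans hB1
  have hst : St2 Ω s s := by
    intro U W _ _ _ _
    unfold bl
    simp
  obtain ⟨w₁, w₂, gc, hw1, -, hwc1, -, -, hd1, -, -, -⟩ :=
    hg2 Ω hΩ hreg hΩc s s hs hs hy hy hone1 (fun x _ => rfl) hst δ2 hδ2.le hδ2G hent hent
  obtain ⟨K₁, hD1, hcomp1⟩ := hdif univ w₁ hw1 (fun x hx => absurd (mem_univ x) hx)
    (cl_le hwc1 (by omega) hδ2D)
  have hw1η : ∀ x j, |w₁ x j| ≤ η := small_point (cl_le hwc1 (by omega) hδ2η)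
  have hCDε : CD * (ε / CD) = ε := by field_simp
  have hTS : HY.TS n k ε (tq s w₁ K₁) := by
    refine ⟨smM_tq hD1 hs, fun y => H158.isSymm_psh hD1 hy _, fun i j => ?_, fun y hyB a => ?_⟩
    · have h1 := hna univ s w₁ K₁ CD hs hD1 hcomp1 (fun i j => cl_le (hcl i j) (by omega) hBa)
        (cl_le hwc1 (by omega) hδ2a) i j
      rw [hCDε] at h1
      exact cl_ph4 (((H158.smM_psh hD1 hs) i j).sub contDiff_const) h1
    · refine div_tq hD1 hs hy a y (hd1 a _ (Kq_cube hD1 ?_ hw1η hyB))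
      rw [hη, div_le_div_iff₀ (by positivity) (by norm_num)]
      have : (0 : ℝ) ≤ n := Nat.cast_nonneg n
      linarith
  have D4 := dif_wq hD1
  have hsub : Kq K₁ ⁻¹' Ω ⊆ HY.Bs n (1 / 2) := by
    refine sub_half hD1 hη0.le ?_ hw1η hΩb
    rw [hη]
    apply le_of_eq
    field_simp
  have hsm : ∀ {σ : V n → ℝ}, ContDiff ℝ ∞ σ → SmM (fun x => σ x • s x) := fun hσ i j =>
    hσ.mul (hs i j)
  have hsy : ∀ (σ : V n → ℝ) (x : V n), (σ x • s x).IsSymm := fun σ x => (hy x).smul _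
  have hor' := orU_push D4 hΩ hbd (hsm hσ1) (hsm hσ2) (hsy σ₁) (hsy σ₂) hA₁ hA₂ hor
  rw [psh_cls hD1, psh_cls hD1] at hor'
  obtain ⟨hsmkA, -, -⟩ := hsmk univ w₁ K₁ hD1 δS hδS.le hS1 (cl_le hwc1 (by omega) hδ2S)
  have hAcl : ∀ A : Cn n N, SmU A → (∀ i, ClC (k + 1 + n + 1) B (A i)) →
      ∀ i, ClC k ε (pfo A (Kq K₁) i) := by
    intro A hA hAc i
    refine clC_Kq hD1 hA fun a b => ?_
    exact cl_le (hsmkA A hA (fun i a b => cl_le (hAc i a b) (by omega) hBS) i a b) le_rfl hS2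
  have hKq : ContDiff ℝ ∞ (Kq K₁) := D4.sK
  have hc4 : (0 : ℝ) < 4 ^ 2 / 4 ^ n := by positivity
  obtain ⟨hσe, U', hU1, hU2, hU3, hU4⟩ := hco (Kq K₁ ⁻¹' Ω) (open_pre D4 hΩ) (reg_pre D4 hreg)
    (conn_pre D4 hcn) hsub (tq s w₁ K₁) hTS (fun y => ((4 : ℝ) ^ 2 / 4 ^ n) * σ₁ (Kq K₁ y))
    (fun y => ((4 : ℝ) ^ 2 / 4 ^ n) * σ₂ (Kq K₁ y)) (contDiff_const.mul (hσ1.comp hKq))
    (contDiff_const.mul (hσ2.comp hKq)) (fun y => mul_pos hc4 (hp1 _))
    (fun y => mul_pos hc4 (hp2 _)) (fun y hy => by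
      show ((4 : ℝ) ^ 2 / 4 ^ n) * σ₂ (Kq K₁ y) = ((4 : ℝ) ^ 2 / 4 ^ n) * σ₁ (Kq K₁ y)
      rw [hσoff _ hy]) (pfo A₁ (Kq K₁)) (pfo A₂ (Kq K₁))
    (Vale.Agent.P088.H292.UP.smU_pfo D4 hA₁) (Vale.Agent.P088.H292.UP.smU_pfo D4 hA₂)
    (fun i y hy => by
      unfold pfo
      refine Finset.sum_congr rfl fun j _ => ?_
      rw [hAoff j _ hy]) (hAcl A₁ hA₁ hc1) (hAcl A₂ hA₂ hc2) hor'
  refine ⟨fun x => ?_, fun x => U' (x + wq w₁ x), fun a b => ?_, fun x => hU2 _, fun x hx => ?_,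
    fun i x hx => gauge_backG D4 hU1 hU4 i hx⟩
  · have h1 := hσe (x + wq w₁ x)
    simp only [D4.l] at h1
    exact mul_left_cancel₀ hc4.ne' h1
  · exact (hU1 a b).comp (contDiff_id.add D4.sw)
  · exact hU3 _ fun h => hx ((mem_pre D4).1 h)

end Vale.Agent.P088.R2.H455.T
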