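import Vale.Agent.P088.R2.H455.T.P1
import Vale.Agent.P088.R2.H455.T.Row
import Vale.Agent.P088.R2.H794.Core

/-!
# P088, T2: a conformal class near a constant metric, at any scale
-/

open MeasureTheory Set
open scoped ContDiff Matrix

noncomputable section

namespace Vale.Agent.P088.R2.H455.T

open Vale.Agent.P088.LR Vale.Agent.P088.LR.U Vale.Agent.P088.LR.H158 Vale.Agent.P088.LR.CF
open Vale.Agent.P088.HY.H794

variable {n N : ℕ}

/-! ### the affine map as a change of variables -/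

/-- The displacement of `ai M`. -/
def wM (M : Matrix (Fin n) (Fin n) ℝ) (x : V n) : V n := ai M x - x

theorem add_wM (M : Matrix (Fin n) (Fin n) ℝ) (x : V n) : x + wM M x = ai M x := by
  unfold wM; abel

theorem jm_wM (M : Matrix (Fin n) (Fin n) ℝ) (x : V n) : jm (wM M) x = M⁻¹ := by
  have h1 : HasFDerivAt (wM M) (ml M⁻¹ - ContinuousLinearMap.id ℝ (V n)) x :=
    (fd_ai M x).sub (hasFDerivAt_id x)
  ext i j
  unfold jm pd
  rw [h1.fderiv]
  have h2 : (ml M⁻¹ - ContinuousLinearMap.id ℝ (V n)) (Pi.single j 1) =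
      M⁻¹ *ᵥ (Pi.single j (1 : ℝ) : V n) - Pi.single j 1 := by
    rw [← ml_apply]; rfl
  rw [h2, mulVec_single, Pi.sub_apply, Matrix.one_apply, Pi.single_apply]
  ring

theorem dif_wM {M : Matrix (Fin n) (Fin n) ℝ} (hM : 0 < M.det) : Dif univ (wM M) (ap M) := by
  refine ⟨(contDiff_ai M).sub contDiff_id, contDiff_ap M, fun x => ?_, fun y => ?_,
    fun x hx => absurd (mem_univ x) hx, fun x => ?_⟩
  · rw [add_wM, ap_ai hM.ne']
  · rw [add_wM, ai_ap hM.ne']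
  · rw [jm_wM, Matrix.det_nonsing_inv, Ring.inverse_eq_inv']
    exact inv_pos.2 hM

theorem psh_wM (M : Matrix (Fin n) (Fin n) ℝ) (s : MF n) (y : V n) :
    psh s (wM M) (ap M) y = M.det • tsr M s y := by
  unfold psh tsr
  rw [jm_wM, Matrix.det_nonsing_inv, Ring.inverse_eq_inv', inv_inv]

theorem pfo_wM (M : Matrix (Fin n) (Fin n) ℝ) (A : Cn n N) (i : Fin n) (y : V n) :
    pfo A (ap M) i y = ∑ j, ((M j i : ℝ) : ℂ) • A j (ap M y) := by
  unfold pfo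
  refine Finset.sum_congr rfl fun j _ => ?_
  have h1 : pd i (ap M) y j = M j i := by
    unfold pd
    rw [(fd_ap M y).fderiv, ml_apply, mulVec_single]
  rw [h1]

theorem ifd_sum_leC {ι : Type*} [Fintype ι] {f : ι → V n → ℂ} (hf : ∀ p, ContDiff ℝ ∞ (f p))
    (c : ι → ℝ) {l : ℕ} {y : V n} {C A : ℝ} (hC : 0 ≤ C) (hc : ∀ p, |c p| ≤ C)
    (h : ∀ p, ‖iteratedFDeriv ℝ l (f p) y‖ ≤ A) :
    ‖iteratedFDeriv ℝ l (fun y => ∑ p, c p • f p y) y‖ ≤ Fintype.card ι * (C * A) := by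
  have h1 : iteratedFDeriv ℝ l (fun y => ∑ p, c p • f p y) y =
      ∑ p, iteratedFDeriv ℝ l (fun y => c p • f p y) y := by
    refine iteratedFDeriv_fun_sum_apply fun p _ => ?_
    exact (((hf p).of_le (by exact_mod_cast le_top)).const_smul (c p)).contDiffAt
  rw [h1]
  refine (norm_sum_le _ _).trans ?_
  calc ∑ p, ‖iteratedFDeriv ℝ l (fun y => c p • f p y) y‖ ≤ ∑ _p : ι, C * A := by
        refine Finset.sum_le_sum fun p _ => ?_
        have h2 : iteratedFDeriv ℝ l (fun y => c p • f p y) y = c p • iteratedFDeriv ℝ l (f p) y :=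
          iteratedFDeriv_const_smul_apply' ((hf p).of_le (by exact_mod_cast le_top)).contDiffAt
        rw [h2, norm_smul]
        exact mul_le_mul (hc p) (h p) (norm_nonneg _) hC
    _ = _ := by simp

/-- All derivatives of a connection up to order `k`, in the scale `R`, are at most `ε`. -/
def ClRC (k : ℕ) (R ε : ℝ) (A : MC n N) : Prop :=
  ∀ a b, ∀ l ≤ k, ∀ x, R ^ (l + 1) * ‖iteratedFDeriv ℝ l (fun x => A x a b) x‖ ≤ ε

/-! ### conformal factors -/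

/-- `t^{(n-2)/2}`. -/
def cfn (n : ℕ) (t : ℝ) : ℝ := √(t ^ n) * t⁻¹

theorem cfn_pos {t : ℝ} (ht : 0 < t) : 0 < cfn n t := by unfold cfn; positivity

theorem cfn_sq (hn : 3 ≤ n) {t : ℝ} (ht : 0 < t) : cfn n t ^ 2 = t ^ (n - 2) := by
  unfold cfn
  rw [mul_pow, Real.sq_sqrt (by positivity)]
  obtain ⟨k, rfl⟩ : ∃ k, n = k + 2 := ⟨n - 2, by omega⟩
  rw [Nat.add_sub_cancel, pow_add]
  field_simp

theorem cfn_inj (hn : 3 ≤ n) {a b : ℝ} (ha : 0 < a) (hb : 0 < b) (h : cfn n a = cfn n b) :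
    a = b := by
  have h1 : a ^ (n - 2) = b ^ (n - 2) := by rw [← cfn_sq hn ha, ← cfn_sq hn hb, h]
  exact (pow_left_inj₀ ha.le hb.le (by omega)).1 h1

theorem cfn_sm {c : V n → ℝ} (hc : ContDiff ℝ ∞ c) (h0 : ∀ x, 0 < c x) :
    ContDiff ℝ ∞ fun x => cfn n (c x) := by
  unfold cfn
  exact ((hc.pow n).sqrt fun x => (pow_pos (h0 x) n).ne').mul (hc.inv fun x => (h0 x).ne')

theorem sg_cls {h : MF n} (hh : ∀ x, (h x).PosDef) {c : V n → ℝ} (hc : ∀ x, 0 < c x) :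
    sg (fun x => c x • h x) = fun x => cfn n (c x) • sg h x := by
  funext x
  have hd : 0 < (h x).det := (hh x).det_pos
  have hi : (c x • h x)⁻¹ = (c x)⁻¹ • (h x)⁻¹ := by
    refine Matrix.inv_eq_right_inv ?_
    rw [Matrix.smul_mul, Matrix.mul_smul, smul_smul, mul_inv_cancel₀ (hc x).ne', one_smul,
      Matrix.mul_nonsing_inv _ hd.ne'.isUnit]
  have hcx := hc x
  unfold sg cfn
  rw [hi, Matrix.det_smul, Fintype.card_fin, Real.sqrt_mul (by positivity), smul_smul, smul_smul]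
  congr 1
  ring

theorem posDef_rootP (hn : 0 < n) {G : Matrix (Fin n) (Fin n) ℝ} (hG : G.PosDef) :
    ∃ S : Matrix (Fin n) (Fin n) ℝ, Sᵀ * S = G ∧ 0 < S.det := by
  obtain ⟨S, hS, hS0⟩ := posDef_root hG
  rcases lt_or_gt_of_ne hS0 with h | h
  · obtain ⟨J, hJ⟩ : ∃ J : Matrix (Fin n) (Fin n) ℝ,
        J = Matrix.diagonal fun i => if i = ⟨0, hn⟩ then -1 else 1 := ⟨_, rfl⟩
    have hJJ : Jᵀ * J = 1 := by
      rw [hJ, Matrix.diagonal_transpose, Matrix.diagonal_mul_diagonal, ← Matrix.diagonal_one]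
      congr 1
      funext i
      split_ifs <;> norm_num
    have hJd : J.det = -1 := by
      rw [hJ, Matrix.det_diagonal, Finset.prod_ite_eq' Finset.univ (⟨0, hn⟩ : Fin n) fun _ => (-1 : ℝ)]
      simp
    refine ⟨J * S, ?_, ?_⟩
    · calc (J * S)ᵀ * (J * S) = Sᵀ * (Jᵀ * J) * S := by
            rw [Matrix.transpose_mul]; simp only [Matrix.mul_assoc]
        _ = G := by rw [hJJ, Matrix.mul_one, hS]
    · rw [Matrix.det_mul, hJd]
      linarith
  · exact ⟨S, hS, h⟩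

/-- Rigidity in a conformal class near a constant metric in the scale `R`. -/
def RigTR (n N k : ℕ) (B ε : ℝ) : Prop :=
  ∀ R : ℝ, 0 < R → ∀ G : Matrix (Fin n) (Fin n) ℝ, G.PosDef → (∀ i j, |G i j| ≤ B) →
  B⁻¹ ≤ G.det → ∀ Ω : Set (V n), IsOpen Ω → interior (closure Ω) = Ω →
  IsPreconnected (closure Ω)ᶜ → (∀ x ∈ Ω, ∀ j, |x j| ≤ 2 * R) → ∀ h : MF n, SmM h → (∀ x, (h x).PosDef) →
  (∀ x, (∃ j, 4 * R < |x j|) → h x = G) → (∀ i j, ClR k R ε (fun x => h x i j - G i j)) →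
  ∀ c₁ c₂ : V n → ℝ, ContDiff ℝ ∞ c₁ → ContDiff ℝ ∞ c₂ → (∀ x, 0 < c₁ x) → (∀ x, 0 < c₂ x) →
  (∀ x ∉ Ω, c₂ x = c₁ x) → ∀ A₁ A₂ : Cn n N, SmU A₁ → SmU A₂ →
  (∀ i, ∀ x ∉ Ω, A₂ i x = A₁ i x) → (∀ i, ClRC k R ε (A₁ i)) → (∀ i, ClRC k R ε (A₂ i)) →
  OrU Ω (sg fun x => c₁ x • h x) A₁ (sg fun x => c₂ x • h x) A₂ →
  (∀ x, c₂ x = c₁ x) ∧ ∃ U : MC n N, SmC U ∧ (∀ x, (U x)ᴴ * U x = 1) ∧ (∀ x ∉ Ω, U x = 1) ∧
    ∀ i, ∀ x ∈ Ω, A₂ i x = (U x)ᴴ * A₁ i x * U x + (U x)ᴴ * pdm i U x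

theorem dd_nonneg (n : ℕ) {B : ℝ} (hB : 0 < B) : 0 ≤ dd n B := by
  have := tt_pos n hB
  have := cT_pos n hB
  unfold dd
  positivity

theorem rigTR (hn : 3 ≤ n) (hUn : ∃ (k : ℕ) (ε : ℝ), 0 < ε ∧ UnitT n N k ε) :
    ∃ k : ℕ, ∀ B : ℝ, 0 < B → ∃ ε > 0, RigTR n N k B ε := by
  obtain ⟨k, ε₁, hε₁, hU⟩ := hUn
  obtain ⟨δ, hδ, hN⟩ := H72.norm0 n k ε₁ hε₁
  refine ⟨k, fun B hB => ?_⟩
  obtain ⟨ε₀, hε₀, he1, he2⟩ : ∃ ε₀ : ℝ, 0 < ε₀ ∧ ε₀ ≤ ε₁ ∧ ε₀ ≤ δ :=
    ⟨min ε₁ δ, lt_min hε₁ hδ, min_le_left _ _, min_le_right _ _⟩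
  have ht := tt_pos n hB
  have hc := cT_pos n hB
  have hn0 : (0 : ℝ) < n := by exact_mod_cast (by omega : 0 < n)
  have hdd := dd_nonneg n hB
  have hddp : 0 < dd n B := by unfold dd; positivity
  have hm : 0 < max 1 (dd n B) ^ k := by positivity
  obtain ⟨e1, he1'⟩ : ∃ e : ℝ, e = ε₀ / (n * n * (cT n B * cT n B) * max 1 (dd n B) ^ k) :=
    ⟨_, rfl⟩
  obtain ⟨e2, he2'⟩ : ∃ e : ℝ, e = ε₀ / (dd n B * max 1 (dd n B) ^ k) := ⟨_, rfl⟩
  have he1p : 0 < e1 := by rw [he1']; positivity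
  have he2p : 0 < e2 := by rw [he2']; positivity
  refine ⟨min e1 e2, lt_min he1p he2p, ?_⟩
  intro R hR G hG hGb hGd Ω hΩ hreg hcn hΩb h hh hhp hout hhc c₁ c₂ hc1 hc2 hp1 hp2 hcoff A₁ A₂ hA₁ hA₂
    hAoff hA1c hA2c hor
  obtain ⟨S, hS, hSp⟩ := posDef_rootP (by omega) hG
  have hS0 : S.det ≠ 0 := hSp.ne'
  have hSu : IsUnit S.det := hS0.isUnit
  have hT := root_inv_le hB hS hGb hGd
  have hSb := root_le hB.le hS hGb
  -- the matrix of the change of variables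
  obtain ⟨a, ha⟩ : ∃ a : ℝ, a = tt n B * R := ⟨_, rfl⟩
  have ha0 : 0 < a := by rw [ha]; positivity
  obtain ⟨M, hMe⟩ : ∃ M : Matrix (Fin n) (Fin n) ℝ, M = a • S⁻¹ := ⟨_, rfl⟩
  have hMp : 0 < M.det := by
    rw [hMe, Matrix.det_smul, Matrix.det_nonsing_inv, Ring.inverse_eq_inv']
    positivity
  have hM : M.det ≠ 0 := hMp.ne'
  have hMi : M⁻¹ = a⁻¹ • S := by
    refine Matrix.inv_eq_right_inv ?_
    rw [hMe, Matrix.smul_mul, Matrix.mul_smul, smul_smul, mul_inv_cancel₀ ha0.ne', one_smul,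
      Matrix.nonsing_inv_mul S hSu]
  have hMb : ∀ i j, |M i j| ≤ a * cT n B := by
    intro i j
    rw [hMe, Matrix.smul_apply, smul_eq_mul, abs_mul, abs_of_pos ha0]
    exact mul_le_mul_of_nonneg_left (hT i j) ha0.le
  have hMn : ‖ml M‖ ≤ dd n B * R := by
    refine (ml_norm (by positivity) hMb).trans (le_of_eq ?_)
    rw [ha]; unfold dd; ring
  have hκ : 0 < (a ^ 2)⁻¹ := by positivity
  -- the domain
  have hai : ∀ {x : V n} {b : ℝ}, (∀ j, |x j| ≤ b) → ∀ j,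
      |(ai M x - (hf : V n)) j| ≤ a⁻¹ * (n * ((B + 1) * b)) := by
    intro x b hx j
    have e : ai M x - (hf : V n) = a⁻¹ • (S *ᵥ x) := by
      unfold ai
      rw [add_sub_cancel_right, hMi, Matrix.smul_mulVec]
    rw [e, Pi.smul_apply, smul_eq_mul, abs_mul, abs_of_pos (inv_pos.2 ha0)]
    exact mul_le_mul_of_nonneg_left (mulVec_abs_le (by linarith) hSb hx j) (inv_pos.2 ha0).le
  have hq : a⁻¹ * (n * ((B + 1) * R)) ≤ 1 / (64 * (n + 1)) := by
    rw [inv_mul_le_iff₀ ha0, ha, mul_one_div, le_div_iff₀ (by positivity)]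
    unfold tt
    have h1 : (n : ℝ) ≤ n + 1 := by linarith
    have h2 : (n : ℝ) * ((B + 1) * R) ≤ (n + 1) * ((B + 1) * R) :=
      mul_le_mul_of_nonneg_right h1 (by positivity)
    nlinarith [mul_le_mul_of_nonneg_right h2 (by positivity : (0 : ℝ) ≤ 64 * (n + 1))]
  have hnn : ∀ c : ℝ, 0 ≤ c → (n : ℝ) * (c * (1 / (64 * (n + 1)))) ^ 2 ≤ c ^ 2 / 4096 := by
    intro c hc0
    have h3 : (n : ℝ) * (c * (1 / (64 * (n + 1)))) ^ 2 = c ^ 2 / 4096 * (n / (n + 1) ^ 2) := by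
      field_simp
      ring
    rw [h3]
    have h4 : (n : ℝ) / (n + 1) ^ 2 ≤ 1 := by
      rw [div_le_one (by positivity)]
      nlinarith
    exact mul_le_of_le_one_right (by positivity) h4
  have hmemA : ∀ {x : V n} {c : ℝ}, 0 ≤ c → (∀ j, |x j| ≤ c * R) →
      ∑ j, (ai M x j - 1 / 2) ^ 2 ≤ c ^ 2 / 4096 := by
    intro x c hc0 hx
    have h5 : ∀ j, |ai M x j - 1 / 2| ≤ c * (1 / (64 * (n + 1))) := by
      intro j
      have h6 := hai hx j
      have h7 : a⁻¹ * (n * ((B + 1) * (c * R))) = c * (a⁻¹ * (n * ((B + 1) * R))) := by ring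
      rw [h7] at h6
      exact h6.trans (mul_le_mul_of_nonneg_left hq hc0)
    exact (sum_sq_le (v := fun j => ai M x j - 1 / 2) h5).trans (hnn c hc0)
  have D := dif_wM hMp
  obtain ⟨Ω', hΩ'⟩ : ∃ Ω' : Set (V n), Ω' = ap M ⁻¹' Ω := ⟨_, rfl⟩
  have hO' : IsOpen Ω' := by
    rw [hΩ']; exact open_pre D hΩ
  have hreg' : interior (closure Ω') = Ω' := by
    rw [hΩ']; exact reg_pre D hreg
  have hcn' : IsPreconnected (closure Ω')ᶜ := by
    rw [hΩ']; exact conn_pre D hcn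
  have hb' : Ω' ⊆ {x | ∑ j, (x j - 1 / 2) ^ 2 ≤ 1 / 1024} := by
    intro y hy
    rw [hΩ'] at hy
    have h1 := hmemA (x := ap M y) (c := 2) (by norm_num) fun j => by
      have := hΩb _ hy j
      linarith
    rw [ai_ap hM] at h1
    show ∑ j, (y j - 1 / 2) ^ 2 ≤ 1 / 1024
    linarith
  have hbd : Bornology.IsBounded Ω := by
    refine (Metric.isBounded_closedBall (x := (0 : V n)) (r := 2 * R)).subset fun y hy => ?_
    rw [mem_closedBall_zero_iff, pi_norm_le_iff_of_nonneg (by positivity)]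
    exact fun j => hΩb y hy j
  -- the metric
  have hone : ∀ g : MF n, ∀ y, ∀ i j, gsr (a ^ 2)⁻¹ M g y i j -
      (1 : Matrix (Fin n) (Fin n) ℝ) i j =
      ∑ p : Fin n × Fin n, (S⁻¹ p.1 i * S⁻¹ p.2 j) * (g (ap M y) p.1 p.2 - G p.1 p.2) := by
    intro g y i j
    have e1 : gsr (a ^ 2)⁻¹ M g y = (S⁻¹)ᵀ * g (ap M y) * S⁻¹ := by
      unfold gsr
      rw [hMe, Matrix.transpose_smul, Matrix.smul_mul, Matrix.smul_mul, Matrix.mul_smul, smul_smul,
        smul_smul]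
      have : (a ^ 2)⁻¹ * a * a = 1 := by field_simp
      rw [this, one_smul]
    have e2 : (S⁻¹)ᵀ * G * S⁻¹ = 1 := by
      rw [← hS, ← Matrix.mul_assoc, ← Matrix.transpose_mul, Matrix.mul_nonsing_inv S hSu,
        Matrix.transpose_one, Matrix.one_mul, Matrix.mul_nonsing_inv S hSu]
    have e3 : gsr (a ^ 2)⁻¹ M g y - 1 = (S⁻¹)ᵀ * (g (ap M y) - G) * S⁻¹ := by
      rw [e1, Matrix.mul_sub, Matrix.sub_mul, e2]
    have e4 := congrFun (congrFun e3 i) j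
    rw [Matrix.sub_apply] at e4
    rw [e4, Matrix.mul_apply, Fintype.sum_prod_type, Finset.sum_comm]
    refine Finset.sum_congr rfl fun b _ => ?_
    rw [Matrix.mul_apply, Finset.sum_mul]
    refine Finset.sum_congr rfl fun c _ => ?_
    rw [Matrix.transpose_apply, Matrix.sub_apply]
    ring
  have hcl : ∀ i j, Cl k δ (fun y =>
      gsr (a ^ 2)⁻¹ M h y i j - (1 : Matrix (Fin n) (Fin n) ℝ) i j) := by
    intro i j l hl y
    simp only [hone h]
    have h1 := ifd_sum_le (f := fun (p : Fin n × Fin n) (y : V n) =>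
      h (ap M y) p.1 p.2 - G p.1 p.2)
      (fun p => ((hh p.1 p.2).comp (contDiff_ap M)).sub contDiff_const)
      (fun p => S⁻¹ p.1 i * S⁻¹ p.2 j) (l := l) (y := y) (C := cT n B * cT n B)
      (A := max 1 (dd n B) ^ k * e1)
      (by positivity)
      (fun p => by
        rw [abs_mul]
        exact mul_le_mul (hT _ _) (hT _ _) (abs_nonneg _) hc.le)
      (fun p => by
        refine (ifd_ap (f := fun x => h x p.1 p.2 - G p.1 p.2) ((hh p.1 p.2).sub contDiff_const)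
          l y).trans ?_
        have h2 := (hhc p.1 p.2 l hl (ap M y)).trans (min_le_left e1 e2)
        have h3 : ‖ml M‖ ^ l ≤ (dd n B * R) ^ l := pow_le_pow_left₀ (norm_nonneg _) hMn l
        have h4 : dd n B ^ l ≤ max 1 (dd n B) ^ k := by
          calc dd n B ^ l ≤ max 1 (dd n B) ^ l := pow_le_pow_left₀ hdd (le_max_right _ _) l
            _ ≤ _ := pow_le_pow_right₀ (le_max_left _ _) hl
        calc ‖ml M‖ ^ l * ‖iteratedFDeriv ℝ l (fun x => h x p.1 p.2 - G p.1 p.2) (ap M y)‖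
            ≤ (dd n B * R) ^ l * ‖iteratedFDeriv ℝ l (fun x => h x p.1 p.2 - G p.1 p.2)
                (ap M y)‖ := mul_le_mul_of_nonneg_right h3 (norm_nonneg _)
          _ = dd n B ^ l * (R ^ l * ‖iteratedFDeriv ℝ l (fun x => h x p.1 p.2 - G p.1 p.2)
                (ap M y)‖) := by rw [mul_pow]; ring
          _ ≤ _ := mul_le_mul h4 h2 (by positivity) hm.le)
    refine h1.trans (le_trans (le_of_eq ?_) he2)
    rw [Fintype.card_prod, Fintype.card_fin, he1']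
    push_cast
    field_simp
  have hgo : ∀ y ∉ bal n, gsr (a ^ 2)⁻¹ M h y = 1 := by
    intro y hy
    have h1 : ∃ j, 4 * R < |ap M y j| := by
      by_contra hcon
      push Not at hcon
      apply hy
      have h2 := hmemA (x := ap M y) (c := 4) (by norm_num) hcon
      rw [ai_ap hM] at h2
      show ∑ j, (y j - 1 / 2) ^ 2 ≤ 1 / 16
      linarith
    have h2 := hout _ h1
    ext i j
    have h3 := hone h y i j
    rw [h2] at h3
    simp only [sub_self, mul_zero, Finset.sum_const_zero] at h3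
    linarith
  obtain ⟨g, hg⟩ : ∃ g : MF n, g = gsr (a ^ 2)⁻¹ M h := ⟨_, rfl⟩
  have hgs : SmM g := by rw [hg]; exact smM_gsr hh
  have hgp : ∀ y, (g y).PosDef := by rw [hg]; exact posDef_gsr hκ hM hhp
  -- the tensors
  obtain ⟨γ, hγ⟩ : ∃ γ : ℝ, γ = √(((a ^ 2)⁻¹) ^ n) * |M.det| * ((a ^ 2)⁻¹)⁻¹ := ⟨_, rfl⟩
  have hγ0 : 0 < γ := by
    have : 0 < |M.det| := abs_pos.2 hM
    rw [hγ]; positivity
  have hsg : sg g = fun y => γ • tsr M (sg h) y := by
    rw [hg, hγ]; exact sg_gsr hκ hM hhp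
  have hpush : ∀ c : V n → ℝ, (∀ x, 0 < c x) →
      psh (sg fun x => c x • h x) (wM M) (ap M) =
        fun y => (M.det * γ⁻¹ * cfn n (c (ap M y))) • sg g y := by
    intro c hc
    funext y
    rw [sg_cls hhp hc, psh_smul, psh_wM, hsg, smul_smul, smul_smul]
    congr 1
    field_simp
  have hcsm : ∀ c : V n → ℝ, ContDiff ℝ ∞ c → (∀ x, 0 < c x) → SmM (sg fun x => c x • h x) := by
    intro c hc hc0
    rw [sg_cls hhp hc0]
    exact fun i j => (cfn_sm hc hc0).mul (LR.H442.smM_sg442 hh hhp i j)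
  have hcsy : ∀ c : V n → ℝ, (∀ x, 0 < c x) → ∀ x, (sg (fun x => c x • h x) x).IsSymm := by
    intro c hc0 x
    rw [sg_cls hhp hc0]
    exact (LR.H442.symm_sg442 hhp x).smul _
  have hor' := orU_push D hΩ hbd (hcsm c₁ hc1 hp1) (hcsm c₂ hc2 hp2) (hcsy c₁ hp1) (hcsy c₂ hp2)
    hA₁ hA₂ hor
  rw [hpush c₁ hp1, hpush c₂ hp2, ← hΩ'] at hor'
  -- the connections
  have hAcl : ∀ A : Cn n N, SmU A → (∀ i, ClRC k R (min e1 e2) (A i)) →
      ∀ i, ClC k ε₁ (pfo A (ap M) i) := by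
    intro A hA hAc i p q l hl y
    have e : (fun y => pfo A (ap M) i y p q) = fun y => ∑ j, M j i • A j (ap M y) p q := by
      funext y
      rw [pfo_wM, Matrix.sum_apply]
      refine Finset.sum_congr rfl fun j _ => ?_
      rw [Matrix.smul_apply, smul_eq_mul, Complex.real_smul]
    rw [e]
    have h1 := ifd_sum_leC (f := fun (j : Fin n) (y : V n) => A j (ap M y) p q)
      (fun j => (hA.1 j p q).comp (contDiff_ap M)) (fun j => M j i) (l := l) (y := y)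
      (C := a * cT n B) (A := max 1 (dd n B) ^ k * e2 / R) (by positivity) (fun j => hMb j i)
      (fun j => by
        refine (ifd_ap (f := fun x => A j x p q) (hA.1 j p q) l y).trans ?_
        have h2 := (hAc j p q l hl (ap M y)).trans (min_le_right e1 e2)
        have h3 : ‖ml M‖ ^ l ≤ (dd n B * R) ^ l := pow_le_pow_left₀ (norm_nonneg _) hMn l
        have h4 : dd n B ^ l ≤ max 1 (dd n B) ^ k := by
          calc dd n B ^ l ≤ max 1 (dd n B) ^ l := pow_le_pow_left₀ hdd (le_max_right _ _) l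
            _ ≤ _ := pow_le_pow_right₀ (le_max_left _ _) hl
        rw [le_div_iff₀ hR]
        calc ‖ml M‖ ^ l * ‖iteratedFDeriv ℝ l (fun x => A j x p q) (ap M y)‖ * R
            ≤ (dd n B * R) ^ l * ‖iteratedFDeriv ℝ l (fun x => A j x p q) (ap M y)‖ * R :=
              mul_le_mul_of_nonneg_right (mul_le_mul_of_nonneg_right h3 (norm_nonneg _)) hR.le
          _ = dd n B ^ l * (R ^ (l + 1) * ‖iteratedFDeriv ℝ l (fun x => A j x p q) (ap M y)‖) := by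
              rw [mul_pow, pow_succ]; ring
          _ ≤ _ := mul_le_mul h4 h2 (by positivity) hm.le)
    refine h1.trans (le_trans (le_of_eq ?_) he1)
    rw [Fintype.card_fin, he2', ha]
    have e3 : (n : ℝ) * (tt n B * R * cT n B * (max 1 (dd n B) ^ k *
        (ε₀ / (dd n B * max 1 (dd n B) ^ k)) / R)) = (n * (tt n B * cT n B)) * ε₀ / dd n B := by
      field_simp
    rw [e3]
    have e4 : (n : ℝ) * (tt n B * cT n B) = dd n B := rfl
    rw [e4]
    field_simp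
  have hcM : 0 < M.det * γ⁻¹ := by positivity
  have hoffA : ∀ i, ∀ y ∉ Ω', pfo A₂ (ap M) i y = pfo A₁ (ap M) i y := by
    intro i y hy
    rw [hΩ'] at hy
    unfold pfo
    refine Finset.sum_congr rfl fun j _ => ?_
    rw [hAoff j _ hy]
  obtain ⟨hσe, U', hU1, hU2, hU3, hU4⟩ := hU Ω' hO' hreg' hcn' hb' (sg g) (LR.H442.smM_sg442 hgs hgp)
    (LR.H442.symm_sg442 hgp) (fun x hx => by
      unfold sg
      rw [hg, hgo x hx]
      exact sg_one_mat) (hN g hgs (by rw [hg]; exact hcl))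
    (fun y => M.det * γ⁻¹ * cfn n (c₁ (ap M y))) (fun y => M.det * γ⁻¹ * cfn n (c₂ (ap M y)))
    (contDiff_const.mul ((cfn_sm hc1 hp1).comp (contDiff_ap M)))
    (contDiff_const.mul ((cfn_sm hc2 hp2).comp (contDiff_ap M)))
    (fun y => mul_pos hcM (cfn_pos (hp1 _))) (fun y => mul_pos hcM (cfn_pos (hp2 _)))
    (fun y hy => by
      rw [hΩ'] at hy
      show M.det * γ⁻¹ * cfn n (c₂ (ap M y)) = M.det * γ⁻¹ * cfn n (c₁ (ap M y))
      rw [hcoff _ hy]) (pfo A₁ (ap M)) (pfo A₂ (ap M))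
    (Vale.Agent.P088.H292.UP.smU_pfo D hA₁) (Vale.Agent.P088.H292.UP.smU_pfo D hA₂) hoffA
    (hAcl A₁ hA₁ hA1c) (hAcl A₂ hA₂ hA2c) hor'
  refine ⟨fun x => ?_, fun x => U' (x + wM M x), fun a b => ?_, fun x => hU2 _, fun x hx => ?_,
    fun i x hx => gauge_backG D hU1 (by rw [← hΩ']; exact hU4) i hx⟩
  · have h1 := mul_left_cancel₀ hcM.ne' (hσe (ai M x))
    simp only [ap_ai hM] at h1
    exact cfn_inj hn (hp2 x) (hp1 x) h1
  · exact (hU1 a b).comp (contDiff_id.add D.sw)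
  · refine hU3 _ fun h' => hx ?_
    rw [hΩ'] at h'
    exact (mem_pre D).1 h'

end Vale.Agent.P088.R2.H455.T
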