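import Vale.Agent.P088.H158.KMp
import Vale.Agent.P088.H738.URig

/-!
# P088, T2: transport of the orthogonality identity of pairs by a diffeomorphism of the space
-/

open MeasureTheory Set
open scoped ContDiff Matrix

noncomputable section

namespace Vale.Agent.P088.R2.H455.T

open Vale.Agent.P088.LR Vale.Agent.P088.LR.U Vale.Agent.P088.LR.H158 Vale.Agent.P088.H292.UP

variable {n N : ℕ}

section dif

variable {w K : V n → V n} (D : Dif univ w K)

include D

theorem img_pre (Ω : Set (V n)) : (fun x => x + w x) '' Ω = K ⁻¹' Ω := by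
  ext y
  constructor
  · rintro ⟨x, hx, rfl⟩
    show K (x + w x) ∈ Ω
    rw [D.l]; exact hx
  · intro hy
    exact ⟨K y, hy, D.r y⟩

theorem mem_pre {Ω : Set (V n)} {x : V n} : x + w x ∈ K ⁻¹' Ω ↔ x ∈ Ω := by
  show K (x + w x) ∈ Ω ↔ x ∈ Ω
  rw [D.l]

/-- the homeomorphism -/
def hmD : V n ≃ₜ V n where
  toFun := K
  invFun := fun x => x + w x
  left_inv := D.r
  right_inv := D.l
  continuous_toFun := D.sK.continuous
  continuous_invFun := (contDiff_id.add D.sw).continuous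

theorem reg_pre {Ω : Set (V n)} (h : interior (closure Ω) = Ω) :
    interior (closure (K ⁻¹' Ω)) = K ⁻¹' Ω := by
  have e1 := (hmD D).preimage_closure Ω
  have e2 := (hmD D).preimage_interior (closure Ω)
  have e3 : (hmD D) ⁻¹' Ω = K ⁻¹' Ω := rfl
  rw [e1, e3, h, e3] at e2
  exact e2.symm

theorem conn_pre {Ω : Set (V n)} (h : IsPreconnected (closure Ω)ᶜ) :
    IsPreconnected (closure (K ⁻¹' Ω))ᶜ := by
  have e1 : K ⁻¹' closure Ω = closure (K ⁻¹' Ω) := (hmD D).preimage_closure Ω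
  have e2 : (closure (K ⁻¹' Ω))ᶜ = (fun x => x + w x) '' (closure Ω)ᶜ := by
    rw [← e1, img_pre D]
    rfl
  rw [e2]
  exact h.image _ (contDiff_id.add D.sw).continuous.continuousOn

theorem open_pre {Ω : Set (V n)} (h : IsOpen Ω) : IsOpen (K ⁻¹' Ω) := h.preimage D.sK.continuous

theorem bounded_pre {Ω : Set (V n)} (hb : Bornology.IsBounded Ω) :
    Bornology.IsBounded (K ⁻¹' Ω) := by
  have h1 : IsCompact (closure Ω) := hb.isCompact_closure
  have hH : Continuous fun x : V n => x + w x := (contDiff_id.add D.sw).continuous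
  exact (h1.image hH).isBounded.subset fun y hy => ⟨K y, subset_closure hy, D.r y⟩

/-- **change of variables** -/
theorem ea_pushG {Ω : Set (V n)} (hΩ : IsOpen Ω) (s : MF n) (A : Cn n N)
    {u v : V n → Fin N → ℂ} (hu : ContDiff ℝ ∞ u) (hv : ContDiff ℝ ∞ v) :
    ea (K ⁻¹' Ω) (psh s w K) (pfo A K) u v =
      ea Ω s A (fun x => u (x + w x)) (fun x => v (x + w x)) := by
  rw [ea_eq, ea_eq]
  have h1 := integral_image_eq_integral_abs_det_fderiv_smul (volume : Measure (V n))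
    hΩ.measurableSet (f := fun x => x + w x)
    (f' := fun x => ContinuousLinearMap.id ℝ (V n) + fderiv ℝ w x)
    (fun x _ => (hasFDerivAt_H D.sw x).hasFDerivWithinAt) ((H_inj D).injOn)
    (fun y => qf (psh s w K y) (fun i => cd (pfo A K) i u y) (fun i => cd (pfo A K) i v y))
  rw [img_pre D Ω] at h1
  rw [h1]
  refine setIntegral_congr_fun hΩ.measurableSet fun x _ => ?_
  show |(ContinuousLinearMap.id ℝ (V n) + fderiv ℝ w x).det| •
    qf (psh s w K (x + w x)) (fun i => cd (pfo A K) i u (x + w x))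
      (fun i => cd (pfo A K) i v (x + w x)) =
    qf (s x) (fun i => cd A i (fun x => u (x + w x)) x) (fun i => cd A i (fun x => v (x + w x)) x)
  rw [det_H, abs_of_pos (D.dp x)]
  have e1 : psh s w K (x + w x) = (jm w x).det⁻¹ • (jm w x * s x * (jm w x)ᵀ) := by
    unfold psh
    rw [D.l]
  have hd : ((jm w x).det : ℂ) ≠ 0 := by
    exact_mod_cast (D.dp x).ne'
  rw [e1, qf_smul, Complex.real_smul, Complex.ofReal_inv, ← mul_assoc, mul_inv_cancel₀ hd,
    one_mul, qf_alg]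
  congr 1
  · funext a
    exact (cd_push D A hu x a).symm
  · funext a
    exact (cd_push D A hv x a).symm

/-- solutions are pulled back -/
theorem lav_pullG {Ω : Set (V n)} (hΩ : IsOpen Ω) (hb : Bornology.IsBounded Ω) {s : MF n}
    (hs : SmM s) (hsym : ∀ x, (s x).IsSymm) {A : Cn n N} (hA : SmU A) {v : V n → Fin N → ℂ}
    (hv : ContDiff ℝ ∞ v) (h : ∀ x ∈ K ⁻¹' Ω, lav (psh s w K) (pfo A K) v x = 0) :
    ∀ x ∈ Ω, lav s A (fun x => v (x + w x)) x = 0 := by
  have hH : ContDiff ℝ ∞ fun x => x + w x := contDiff_id.add D.sw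
  refine lav_of_weak hΩ hb hs hsym hA (hv.comp hH) ?_
  intro φ hφ hφ0
  have hφK : ContDiff ℝ ∞ fun y => φ (K y) := hφ.comp D.sK
  have h1 := ea_pushG D hΩ s A hv hφK
  have h2 : (fun x => φ (K (x + w x))) = φ := by
    funext x
    rw [D.l]
  have h3 : ea Ω s A (fun x => v (x + w x)) φ =
      ea (K ⁻¹' Ω) (psh s w K) (pfo A K) v fun y => φ (K y) := by
    rw [h1]
    simp only [h2]
  rw [h3]
  refine wk1 (open_pre D hΩ) (bounded_pre D hb) (smM_psh D hs) (isSymm_psh D hsym) (smU_pfo D hA)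
    hv hφK h fun x hx => ?_
  have hx' : x ∉ K ⁻¹' Ω := fun h' => ((open_pre D hΩ).frontier_eq ▸ hx).2 h'
  exact hφ0 _ hx'

/-- the orthogonality identity is transported -/
theorem orU_push {Ω : Set (V n)} (hΩ : IsOpen Ω) (hb : Bornology.IsBounded Ω) {s₁ s₂ : MF n}
    (hs₁ : SmM s₁) (hs₂ : SmM s₂) (hy₁ : ∀ x, (s₁ x).IsSymm) (hy₂ : ∀ x, (s₂ x).IsSymm)
    {A₁ A₂ : Cn n N} (hA₁ : SmU A₁) (hA₂ : SmU A₂) (h : OrU Ω s₁ A₁ s₂ A₂) :
    OrU (K ⁻¹' Ω) (psh s₁ w K) (pfo A₁ K) (psh s₂ w K) (pfo A₂ K) := by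
  have hH : ContDiff ℝ ∞ fun x => x + w x := contDiff_id.add D.sw
  intro u v hu hv hu0 hv0
  rw [ea_pushG D hΩ s₁ A₁ hu hv, ea_pushG D hΩ s₂ A₂ hu hv]
  exact h _ _ (hu.comp hH) (hv.comp hH) (lav_pullG D hΩ hb hs₁ hy₁ hA₁ hu hu0)
    (lav_pullG D hΩ hb hs₂ hy₂ hA₂ hv hv0)

/-- back to the old coordinates -/
theorem gauge_backG {A₁ A₂ : Cn n N} {U : MC n N} (hU : SmC U) {Ω : Set (V n)}
    (h : ∀ i, ∀ y ∈ K ⁻¹' Ω,
      pfo A₂ K i y = (U y)ᴴ * pfo A₁ K i y * U y + (U y)ᴴ * pdm i U y)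
    (i : Fin n) {x : V n} (hx : x ∈ Ω) :
    A₂ i x = (U (x + w x))ᴴ * A₁ i x * U (x + w x) +
      (U (x + w x))ᴴ * pdm i (fun x => U (x + w x)) x := by
  have hx' : x + w x ∈ K ⁻¹' Ω := (mem_pre D).2 hx
  rw [pfo_back738 D A₂ i x, pdm_comp738 D.sw hU i x, pfo_back738 D A₁ i x]
  simp only [h _ _ hx', smul_add, Finset.sum_add_distrib, Finset.mul_sum, Finset.sum_mul,
    Matrix.mul_smul, Matrix.smul_mul]

end dif

/-- A conformal factor is transported. -/
theorem psh_smul (σ : V n → ℝ) (s : MF n) (w K : V n → V n) (y : V n) :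
    psh (fun x => σ x • s x) w K y = σ (K y) • psh s w K y := by
  unfold psh
  rw [Matrix.mul_smul, Matrix.smul_mul, smul_comm]

end Vale.Agent.P088.R2.H455.T
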